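import Mathlib
import Vale.Agent.Lib.P141.HexGauss
import Vale.Agent.Lib.P141.Family
import Vale.Agent.Lib.P141.EveryR
import Vale.Agent.Lib.P141.Master

open scoped ENNReal

namespace Vale.Agent.Results.P141.A0_master

open Vale.Agent.Lib.P141

/-- All our necessary conditions for boundedness of the trilinear Hilbert transform, together.
(i) If it is bounded at a Holder tuple `(p₁, p₂, p₃, r)` then `r > 0.4732`; for every finitely
supported probability distribution `μ` on integer pairs `(x, t)`, with `H` the Shannon entropy under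
`μ` and `sₖ = 1 / pₖ`, one has `min 0 (H (x, t) - 2 H x) + ∑ₖ sₖ (H x - H (x - k t)) ≤ 0`; and for
every `n ≥ 1`, `4 ^ s₁ * n ^ s₂ * (4 n / (n + 3)) ^ s₃ ≤ 4 n` and
`3 ^ s₁ * (3 n / (n + 2)) ^ s₂ * n ^ s₃ ≤ 3 n`.
(ii) For every real `ρ` with `1/3 < ρ < 1/2` there is a Holder tuple with `r = ρ` at which it is not
bounded.
(iii) If it is bounded at `(p₁, p₂, p₃, r)`, `0 < r < ∞`, then for every finite set `P` of integer
pairs `(x, t)` and every base `L ≥ 2` such that `(x, t)` is determined by its residues mod `L` and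
distinct `x` are distinct mod `L`,
`(∑ₙ (number of t with (n, t) ∈ P) ^ r) ^ (1 / r) ≤ L * |A₁| ^ (1 / p₁) * |A₂| ^ (1 / p₂) * |A₃| ^ (1 / p₃)`,
where `Aₖ` is the set of all `x - k * t` for `(x, t) ∈ P`. -/
theorem result :
    (∀ p₁ p₂ p₃ r : ℝ≥0∞, IsHolder p₁ p₂ p₃ r → BoundedAt p₁ p₂ p₃ r →
      0.4732 < r.toReal ∧
      (∀ (Ω : Finset (ℤ × ℤ)) (μ : ℤ × ℤ → ℝ), (∀ z ∈ Ω, 0 ≤ μ z) → ∑ z ∈ Ω, μ z = 1 →
        min 0 (shan Ω μ id - 2 * shan Ω μ Prod.fst) +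
          (1 / p₁).toReal * (shan Ω μ Prod.fst - shan Ω μ (form 1)) +
          (1 / p₂).toReal * (shan Ω μ Prod.fst - shan Ω μ (form 2)) +
          (1 / p₃).toReal * (shan Ω μ Prod.fst - shan Ω μ (form 3)) ≤ 0) ∧
      (∀ n : ℕ, 1 ≤ n →
        (4 : ℝ) ^ (1 / p₁).toReal * (n : ℝ) ^ (1 / p₂).toReal *
          (4 * n / (n + 3) : ℝ) ^ (1 / p₃).toReal ≤ 4 * n) ∧
      (∀ n : ℕ, 1 ≤ n →
        (3 : ℝ) ^ (1 / p₁).toReal * (3 * n / (n + 2) : ℝ) ^ (1 / p₂).toReal *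
          (n : ℝ) ^ (1 / p₃).toReal ≤ 3 * n)) ∧
    (∀ ρ : ℝ, 1 / 3 < ρ → ρ < 1 / 2 →
      ∃ p₁ p₂ p₃ : ℝ≥0∞, IsHolder p₁ p₂ p₃ (ENNReal.ofReal ρ) ∧
        ¬ BoundedAt p₁ p₂ p₃ (ENNReal.ofReal ρ)) ∧
    (∀ p₁ p₂ p₃ r : ℝ≥0∞, r ≠ 0 → r ≠ ⊤ → BoundedAt p₁ p₂ p₃ r →
      ∀ (P : Finset (ℤ × ℤ)) (L : ℤ), 2 ≤ L → Admissible L P →
        wt r.toReal P ^ (1 / r.toReal) ≤
          (L : ℝ) * (((P.image (form 1)).card : ℝ) ^ (1 / p₁.toReal) *
            ((P.image (form 2)).card : ℝ) ^ (1 / p₂.toReal) *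
            ((P.image (form 3)).card : ℝ) ^ (1 / p₃.toReal))) := by
  refine ⟨fun p₁ p₂ p₃ r h hb => ⟨?_, fun Ω μ h0 h1 => ?_, fun n hn => ?_, fun n hn => ?_⟩,
    fun ρ h₁ h₂ => exists_not_boundedAt ρ h₁ h₂, fun p₁ p₂ p₃ r hr0 hrtop hb P L hL hP => ?_⟩
  · by_contra hr
    exact not_boundedAt_of_le_hex h (not_lt.mp hr) hb
  · simp only [one_div_toReal]
    exact shan_ineq h.r_pos.ne' h.r_lt_top.ne (holder_sum h) hb h0 h1
  · simp only [one_div_toReal]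
    exact necessary_famB h hb hn
  · simp only [one_div_toReal]
    exact necessary_famC h hb hn
  · by_contra hlt
    exact not_boundedAt_of_config hr0 hrtop P hL hP (not_le.mp hlt) hb

end Vale.Agent.Results.P141.A0_master
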