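import Mathlib
import Vale.Agent.Lib.P141.HexGauss
import Vale.Agent.Lib.P141.Family

open scoped ENNReal

namespace Vale.Agent.Results.P141.A_entropy

open Vale.Agent.Lib.P141

/-- Necessary conditions for boundedness of the trilinear Hilbert transform at a Holder tuple.
If it is bounded at `(p₁, p₂, p₃, r)`, then `r > 0.4732`, and for every finitely supported
probability distribution `μ` on integer pairs `(x, t)`, with `H` the Shannon entropy under `μ`
and `sₖ = 1 / pₖ`, one has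
`min 0 (H (x, t) - 2 H x) + ∑ₖ sₖ (H x - H (x - k t)) ≤ 0`. -/
theorem result (p₁ p₂ p₃ r : ℝ≥0∞) (h : IsHolder p₁ p₂ p₃ r) (hb : BoundedAt p₁ p₂ p₃ r) :
    0.4732 < r.toReal ∧
    ∀ (Ω : Finset (ℤ × ℤ)) (μ : ℤ × ℤ → ℝ), (∀ z ∈ Ω, 0 ≤ μ z) → ∑ z ∈ Ω, μ z = 1 →
      min 0 (shan Ω μ id - 2 * shan Ω μ Prod.fst) +
        (1 / p₁).toReal * (shan Ω μ Prod.fst - shan Ω μ (form 1)) +
        (1 / p₂).toReal * (shan Ω μ Prod.fst - shan Ω μ (form 2)) +
        (1 / p₃).toReal * (shan Ω μ Prod.fst - shan Ω μ (form 3)) ≤ 0 := by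
  refine ⟨?_, fun Ω μ h0 h1 => ?_⟩
  · by_contra hr
    exact not_boundedAt_of_le_hex h (not_lt.mp hr) hb
  · simp only [one_div_toReal]
    exact shan_ineq h.r_pos.ne' h.r_lt_top.ne (holder_sum h) hb h0 h1

end Vale.Agent.Results.P141.A_entropy
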