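import Mathlib
import Vale.Agent.Lib.P141.Family

open scoped ENNReal

namespace Vale.Agent.Results.P141.A_main

open Vale.Agent.Lib.P141

/-- Necessary conditions for boundedness of the trilinear Hilbert transform at a Holder tuple:
if it is bounded at `(p₁, p₂, p₃, r)` then `r > 4/9`, and for every `n ≥ 1`
`4 ^ s₁ * n ^ s₂ * (4 n / (n + 3)) ^ s₃ ≤ 4 n` and `3 ^ s₁ * (3 n / (n + 2)) ^ s₂ * n ^ s₃ ≤ 3 n`,
where `sᵢ = 1 / pᵢ` (and `1 / ∞ = 0`). -/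
theorem result (p₁ p₂ p₃ r : ℝ≥0∞) (h : IsHolder p₁ p₂ p₃ r) (hb : BoundedAt p₁ p₂ p₃ r) :
    4 / 9 < r.toReal ∧
    (∀ n : ℕ, 1 ≤ n →
      (4 : ℝ) ^ (1 / p₁).toReal * (n : ℝ) ^ (1 / p₂).toReal *
        (4 * n / (n + 3) : ℝ) ^ (1 / p₃).toReal ≤ 4 * n) ∧
    (∀ n : ℕ, 1 ≤ n →
      (3 : ℝ) ^ (1 / p₁).toReal * (3 * n / (n + 2) : ℝ) ^ (1 / p₂).toReal *
        (n : ℝ) ^ (1 / p₃).toReal ≤ 3 * n) := by
  refine ⟨?_, fun n hn => ?_, fun n hn => ?_⟩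
  · by_contra hr
    exact not_boundedAt_of_le h (not_lt.mp hr) hb
  · simp only [one_div_toReal]
    exact necessary_famB h hb hn
  · simp only [one_div_toReal]
    exact necessary_famC h hb hn

end Vale.Agent.Results.P141.A_main
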