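import Mathlib
import Vale.Agent.Lib.P141.EveryR

open scoped ENNReal

namespace Vale.Agent.Results.P141.B_every_r

open Vale.Agent.Lib.P141

/-- For every real `ρ` with `1/3 < ρ < 1/2` there is a Holder tuple with exponent `r = ρ` at which
the trilinear Hilbert transform is not bounded. -/
theorem result (ρ : ℝ) (h₁ : 1 / 3 < ρ) (h₂ : ρ < 1 / 2) :
    ∃ p₁ p₂ p₃ : ℝ≥0∞, IsHolder p₁ p₂ p₃ (ENNReal.ofReal ρ) ∧
      ¬ BoundedAt p₁ p₂ p₃ (ENNReal.ofReal ρ) :=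
  exists_not_boundedAt ρ h₁ h₂

end Vale.Agent.Results.P141.B_every_r
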