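import Mathlib
import Vale.Agent.Lib.P141.Master

open scoped ENNReal

namespace Vale.Agent.Results.P141.C_master

open Vale.Agent.Lib.P141

/-- A discrete necessary condition for boundedness of the trilinear Hilbert transform at `(p₁, p₂,
p₃, r)`, `0 < r < ∞`: for every finite set `P` of pairs `(x, t)` of integers and every base `L ≥ 2`
such that `(x, t)` is determined by its residues mod `L` and distinct `x` are distinct mod `L`,
`(∑ₙ (number of t with (n, t) ∈ P) ^ r) ^ (1 / r) ≤ L * |A₁| ^ (1 / p₁) * |A₂| ^ (1 / p₂) * |A₃| ^ (1 / p₃)`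
where `Aₖ` is the set of all `x - k * t` for `(x, t) ∈ P`. -/
theorem result (p₁ p₂ p₃ r : ℝ≥0∞) (hr0 : r ≠ 0) (hrtop : r ≠ ⊤) (hb : BoundedAt p₁ p₂ p₃ r)
    (P : Finset (ℤ × ℤ)) (L : ℤ) (hL : 2 ≤ L) (hP : Admissible L P) :
    wt r.toReal P ^ (1 / r.toReal) ≤
      (L : ℝ) * (((P.image (form 1)).card : ℝ) ^ (1 / p₁.toReal) *
        ((P.image (form 2)).card : ℝ) ^ (1 / p₂.toReal) *
        ((P.image (form 3)).card : ℝ) ^ (1 / p₃.toReal)) := by
  by_contra hlt
  exact not_boundedAt_of_config hr0 hrtop P hL hP (not_le.mp hlt) hb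

end Vale.Agent.Results.P141.C_master
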